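import Vale.Agent.P075.ZFinal

/-!
Q1: the truncated triangular Hilbert form on the real plane is bounded on L^3 x L^3 x L^3 with a
constant which grows at most like (log log (R/ε)) ^ 6.
-/

namespace Vale.Agent.Results.P075.LogLogReal

open MeasureTheory Vale.Agent.P075

theorem result :
    ∃ C : ℝ, 0 < C ∧ ∀ ε R : ℝ, 0 < ε → ε < R → ∀ G₀ G₁ G₂ : ℝ × ℝ → ℂ,
      MemLp G₀ 3 volume → MemLp G₁ 3 volume → MemLp G₂ 3 volume →
      Integrable (triInt ε R G₀ G₁ G₂) ∧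
      ‖∫ p : ℝ × ℝ × ℝ, triInt ε R G₀ G₁ G₂ p‖ ≤
        C * (1 + Real.log (1 + Real.log (R / ε))) ^ 6 *
          ((eLpNorm G₀ 3 volume).toReal * (eLpNorm G₁ 3 volume).toReal *
            (eLpNorm G₂ 3 volume).toReal) := by
  obtain ⟨C, hC, h⟩ := finalComplex
  exact ⟨C, hC, h⟩

end Vale.Agent.Results.P075.LogLogReal
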