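import Vale.Agent.P075.TransferA
import Vale.Agent.P075.TransferB

/-!
Q2: the dyadic triangular Hilbert form over any m scales is bounded on L^3 x L^3 x L^3 with a
constant which grows at most like (1 + log m)^3.
-/

namespace Vale.Agent.Results.P075.PolylogGrowth

open Vale.Agent.P075

theorem result :
    ∃ C : ℝ, 0 < C ∧ ∀ (S : Finset ℤ) (ε : ℤ → ℝ), (∀ k ∈ S, |ε k| ≤ 1) →
      ∀ F₀ F₁ F₂ : ℝ × ℝ → ℝ, Measurable F₀ → Measurable F₁ → Measurable F₂ →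
        (∃ M, ∀ p, |F₀ p| ≤ M) → (∃ M, ∀ p, |F₁ p| ≤ M) → (∃ M, ∀ p, |F₂ p| ≤ M) →
        HasCompactSupport F₀ → HasCompactSupport F₁ → HasCompactSupport F₂ →
        |LamD S ε F₀ F₁ F₂| ≤
          C * (1 + Real.log S.card) ^ 3 * (L3q F₀ * L3q F₁ * L3q F₂) := by
  obtain ⟨C, hC, h⟩ := transfer_of_step transfer_step
  refine ⟨C, hC, ?_⟩
  intro S ε hε F₀ F₁ F₂ m₀ m₁ m₂ b₀ b₁ b₂ c₀ c₁ c₂
  set ε' : ℤ → ℝ := fun k => if k ∈ S then ε k else 0 with hε'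
  have h1 : ∀ k, |ε' k| ≤ 1 := by
    intro k
    by_cases hk : k ∈ S
    · simp only [hε', if_pos hk]
      exact hε k hk
    · simp only [hε', if_neg hk, abs_zero]
      exact zero_le_one
  have h2 : LamD S ε F₀ F₁ F₂ = LamD S ε' F₀ F₁ F₂ := by
    unfold LamD
    refine Finset.sum_congr rfl fun k hk => ?_
    simp only [hε', if_pos hk]
  rw [h2]
  exact h S ε' h1 F₀ F₁ F₂ m₀ m₁ m₂ b₀ b₁ b₂ c₀ c₁ c₂

end Vale.Agent.Results.P075.PolylogGrowth
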