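import Vale.Agent.P075.UTransfer

/-!
Q2, the full uniform bound: the dyadic triangular Hilbert form is bounded on L^3 x L^3 x L^3 with an
absolute constant, uniformly over the finite sets of scales and the coefficients.
-/

namespace Vale.Agent.Results.P075.UniformBound

open Vale.Agent.P075

theorem result :
    ∃ C : ℝ, 0 < C ∧ ∀ (S : Finset ℤ) (ε : ℤ → ℝ), (∀ k ∈ S, |ε k| ≤ 1) →
      ∀ F₀ F₁ F₂ : ℝ × ℝ → ℝ, Measurable F₀ → Measurable F₁ → Measurable F₂ →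
        (∃ M, ∀ p, |F₀ p| ≤ M) → (∃ M, ∀ p, |F₁ p| ≤ M) → (∃ M, ∀ p, |F₂ p| ≤ M) →
        HasCompactSupport F₀ → HasCompactSupport F₁ → HasCompactSupport F₂ →
        |LamD S ε F₀ F₁ F₂| ≤ C * (L3q F₀ * L3q F₁ * L3q F₂) := by
  obtain ⟨C, hC, h⟩ := uniformQ2
  refine ⟨C, hC, ?_⟩
  intro S ε hε F₀ F₁ F₂ m₀ m₁ m₂ b₀ b₁ b₂ c₀ c₁ c₂
  set ε' : ℤ → ℝ := fun k => if k ∈ S then ε k else 0 with hε'
  have h1 : ∀ k, |ε' k| ≤ 1 := by
    intro k
    by_cases hk : k ∈ S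
    · simp only [hε', if_pos hk]
      exact hε k hk
    · simp only [hε', if_neg hk, abs_zero]
      exact zero_le_one
  have h2 : LamD S ε F₀ F₁ F₂ = LamD S ε' F₀ F₁ F₂ := by
    unfold LamD
    refine Finset.sum_congr rfl fun k hk => ?_
    simp only [hε', if_pos hk]
  rw [h2]
  exact h S ε' h1 F₀ F₁ F₂ m₀ m₁ m₂ b₀ b₁ b₂ c₀ c₁ c₂

end Vale.Agent.Results.P075.UniformBound
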